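import Vale.Agent.P178.H301.Real

/-! # P178 (helper301): functoriality of Mathlib's homotopy groups -/

namespace Vale.Agent.P178.H301

open CategoryTheory Simplicial Opposite Topology

universe u v w

section

variable {N : Type v} {X Y Z : Type*} [TopologicalSpace X] [TopologicalSpace Y]
  [TopologicalSpace Z] {x : X} {y : Y} {z : Z}

/-- the map on generalized loops -/
def loopMap (f : C(X, Y)) (h : f x = y) (p : GenLoop N X x) : GenLoop N Y y :=
  ⟨f.comp p.1, fun t ht => (congrArg f (p.2 t ht)).trans h⟩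

@[simp] theorem loopMap_apply (f : C(X, Y)) (h : f x = y) (p : GenLoop N X x) (t : N → unitInterval) :
    loopMap f h p t = f (p t) := rfl

theorem loopMap_homotopic (f : C(X, Y)) (h : f x = y) {p q : GenLoop N X x}
    (H : GenLoop.Homotopic p q) : GenLoop.Homotopic (loopMap f h p) (loopMap f h q) :=
  ContinuousMap.HomotopicRel.comp_continuousMap H f

/-- the map on homotopy groups -/
def piMap (f : C(X, Y)) (h : f x = y) : HomotopyGroup N X x → HomotopyGroup N Y y :=
  Quotient.map (loopMap f h) fun _ _ H => loopMap_homotopic f h H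

@[simp] theorem piMap_mk (f : C(X, Y)) (h : f x = y) (p : GenLoop N X x) :
    piMap f h (⟦p⟧ : HomotopyGroup N X x) = (⟦loopMap f h p⟧ : HomotopyGroup N Y y) := rfl

theorem piMap_id (a : HomotopyGroup N X x) : piMap (ContinuousMap.id X) rfl a = a := by
  induction a using Quotient.inductionOn
  rfl

theorem piMap_comp (f : C(X, Y)) (h : f x = y) (g : C(Y, Z)) (h' : g y = z)
    (a : HomotopyGroup N X x) :
    piMap (g.comp f) (by rw [ContinuousMap.comp_apply, h, h']) a = piMap g h' (piMap f h a) := by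
  induction a using Quotient.inductionOn
  rfl

theorem piMap_congr {f f' : C(X, Y)} (e : f = f') (h : f x = y) (h' : f' x = y)
    (a : HomotopyGroup N X x) : piMap f h a = piMap f' h' a := by
  subst e
  rfl

theorem loopMap_transAt [DecidableEq N] (i : N) (f : C(X, Y)) (h : f x = y)
    (p q : GenLoop N X x) :
    loopMap f h (GenLoop.transAt i p q) = GenLoop.transAt i (loopMap f h p) (loopMap f h q) := by
  apply GenLoop.ext
  intro t
  rw [loopMap_apply, GenLoop.transAt, GenLoop.transAt, GenLoop.coe_copy, GenLoop.coe_copy]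
  split_ifs <;> rfl

theorem piMap_one [DecidableEq N] [Nonempty N] (f : C(X, Y)) (h : f x = y) :
    piMap f h (1 : HomotopyGroup N X x) = 1 := by
  rw [HomotopyGroup.one_def, HomotopyGroup.one_def, piMap_mk]
  congr 1
  exact GenLoop.ext _ _ fun t => h

theorem piMap_mul [DecidableEq N] [Nonempty N] (f : C(X, Y)) (h : f x = y)
    (a b : HomotopyGroup N X x) : piMap f h (a * b) = piMap f h a * piMap f h b := by
  induction a using Quotient.inductionOn with | _ p =>
  induction b using Quotient.inductionOn with | _ q =>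
  have h1 := HomotopyGroup.mul_spec (i := Classical.arbitrary N) (p := p) (q := q)
  have h2 := HomotopyGroup.mul_spec (i := Classical.arbitrary N) (p := loopMap f h p)
    (q := loopMap f h q)
  change piMap f h (((· * ·) : _ → _ → HomotopyGroup N X x) ⟦p⟧ ⟦q⟧) =
    ((· * ·) : _ → _ → HomotopyGroup N Y y) ⟦loopMap f h p⟧ ⟦loopMap f h q⟧
  rw [h1, h2, piMap_mk, loopMap_transAt]

/-- the homomorphism of homotopy groups -/
def piHom [DecidableEq N] [Nonempty N] (f : C(X, Y)) (h : f x = y) :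
    HomotopyGroup N X x →* HomotopyGroup N Y y where
  toFun := piMap f h
  map_one' := piMap_one f h
  map_mul' := piMap_mul f h

@[simp] theorem piHom_apply [DecidableEq N] [Nonempty N] (f : C(X, Y)) (h : f x = y)
    (a : HomotopyGroup N X x) : piHom f h a = piMap f h a := rfl

end

/-! ## Simplicial sets -/

section

variable {X Y Z : SSet.{u}}

theorem rmap_pt (φ : X ⟶ Y) (x : X _⦋0⦌) : rmap φ (pt x) = pt (φ.app _ x) := rmap_chi φ x _

/-- the homotopy groups of the realization of a simplicial set at a vertex -/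
abbrev PiS (n : ℕ) (X : SSet.{u}) (x : X _⦋0⦌) : Type u :=
  HomotopyGroup.Pi n (SSet.toTop.obj X) (pt x)

/-- functoriality -/
noncomputable def piS (n : ℕ) (φ : X ⟶ Y) {x : X _⦋0⦌} {y : Y _⦋0⦌} (h : φ.app _ x = y) :
    PiS (n + 1) X x →* PiS (n + 1) Y y :=
  piHom (rmap φ) ((rmap_pt φ x).trans (congrArg pt h))

theorem piS_id (n : ℕ) {x : X _⦋0⦌} (a : PiS (n + 1) X x) : piS n (𝟙 X) rfl a = a := by
  have h : rmap (𝟙 X) = ContinuousMap.id _ := ContinuousMap.ext fun z => rmap_id_apply z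
  unfold piS
  rw [piHom_apply]
  exact (piMap_congr h _ rfl a).trans (piMap_id a)

theorem piS_congr (n : ℕ) {φ φ' : X ⟶ Y} (e : φ = φ') {x : X _⦋0⦌} {y : Y _⦋0⦌}
    (h : φ.app _ x = y) (h' : φ'.app _ x = y) (a : PiS (n + 1) X x) :
    piS n φ h a = piS n φ' h' a := by
  subst e
  rfl

theorem piS_comp (n : ℕ) (φ : X ⟶ Y) (ψ : Y ⟶ Z) {x : X _⦋0⦌} {y : Y _⦋0⦌} {z : Z _⦋0⦌}
    (h : φ.app _ x = y) (h' : ψ.app _ y = z) (h'' : (φ ≫ ψ).app _ x = z) (a : PiS (n + 1) X x) :
    piS n (φ ≫ ψ) h'' a = piS n ψ h' (piS n φ h a) := by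
  have e : rmap (φ ≫ ψ) = (rmap ψ).comp (rmap φ) :=
    ContinuousMap.ext fun z => rmap_comp_apply φ ψ z
  unfold piS
  rw [piHom_apply, piHom_apply, piHom_apply]
  exact (piMap_congr e _ (by rw [ContinuousMap.comp_apply, rmap_pt, h, rmap_pt, h']) a).trans
    (piMap_comp _ _ _ _ a)

/-- A commutative square of simplicial sets. -/
theorem piS_square (n : ℕ) {W : SSet.{u}} {φ : X ⟶ Y} {ψ : Y ⟶ W} {φ' : X ⟶ Z} {ψ' : Z ⟶ W}
    (e : φ ≫ ψ = φ' ≫ ψ') {x : X _⦋0⦌} {y : Y _⦋0⦌} {z : Z _⦋0⦌} {w : W _⦋0⦌}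
    (h1 : φ.app _ x = y) (h2 : ψ.app _ y = w) (h3 : φ'.app _ x = z) (h4 : ψ'.app _ z = w)
    (a : PiS (n + 1) X x) : piS n ψ h2 (piS n φ h1 a) = piS n ψ' h4 (piS n φ' h3 a) := by
  have h5 : (φ ≫ ψ).app _ x = w := by
    rw [NatTrans.comp_app, types_comp_apply, h1, h2]
  have h6 : (φ' ≫ ψ').app _ x = w := by
    rw [NatTrans.comp_app, types_comp_apply, h3, h4]
  rw [← piS_comp n φ ψ h1 h2 h5 a, ← piS_comp n φ' ψ' h3 h4 h6 a]
  exact piS_congr n e _ _ a

/-- How the result is obtained: a class on a source `X` which dies in `Z` and is detected in `Y`. -/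
theorem not_injective_of_square (n : ℕ) {W : SSet.{u}} {φ : X ⟶ Y} {ψ : Y ⟶ W} {φ' : X ⟶ Z}
    {ψ' : Z ⟶ W} (e : φ ≫ ψ = φ' ≫ ψ') {x : X _⦋0⦌} {y : Y _⦋0⦌} {z : Z _⦋0⦌} {w : W _⦋0⦌}
    (h1 : φ.app _ x = y) (h2 : ψ.app _ y = w) (h3 : φ'.app _ x = z) (h4 : ψ'.app _ z = w)
    (a : PiS (n + 1) X x) (ha : piS n φ h1 a ≠ 1) (ha' : piS n φ' h3 a = 1) :
    ¬ Function.Injective (piS n ψ h2) := by
  intro hi
  apply ha
  apply hi
  rw [piS_square n e h1 h2 h3 h4 a, ha', map_one, map_one]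

end

/-! ## Categories -/

section

variable {C D E : Type u} [Category.{v} C] [Category.{v} D] [Category.{v} E]

/-- the vertex of an object -/
def vx (c : C) : (nerve C) _⦋0⦌ := ComposableArrows.mk₀ c

theorem nerveMap_vx (F : C ⥤ D) {c : C} {d : D} (h : F.obj c = d) :
    (nerveMap F).app _ (vx c) = vx d := by
  subst h
  exact ComposableArrows.ext₀ rfl

end

end Vale.Agent.P178.H301
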