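import Vale.Agent.P178.H847.QDef

/-! # P178 (helper301): the small category `QP R` is equivalent to Quillen's category of ALL
finitely generated projective modules, with isomorphism classes of spans as morphisms -/

open CategoryTheory

namespace Vale.Agent.P178.H301

open Vale.Agent.P178.H847

universe u v w

/-- a finitely generated projective module -/
structure FGP (R : Type u) [CommRing R] : Type (max u (v + 1)) where
  carrier : Type v
  [isAddCommGroup : AddCommGroup carrier]
  [isModule : Module R carrier]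
  [finite : Module.Finite R carrier]
  [projective : Module.Projective R carrier]

attribute [instance] FGP.isAddCommGroup FGP.isModule FGP.finite FGP.projective

namespace FGP

variable {R : Type u} [CommRing R]

instance : CoeSort (FGP.{u, v} R) (Type v) := ⟨FGP.carrier⟩

/-- Quillen's diagrams `M ↞ N ↣ M'` -/
structure Span (M M' : FGP.{u, v} R) where
  N : FGP.{u, v} R
  p : N →ₗ[R] M
  i : N →ₗ[R] M'
  surj : Function.Surjective p
  inj : Function.Injective i
  coker : Module.Projective R (M' ⧸ LinearMap.range i)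

namespace Span

variable {M M' M'' M''' : FGP.{u, v} R}

/-- isomorphisms of diagrams which are the identity on `M` and `M'` -/
def Iso (s t : Span M M') : Prop :=
  ∃ e : s.N ≃ₗ[R] t.N, (∀ x, t.p (e x) = s.p x) ∧ ∀ x, t.i (e x) = s.i x

theorem Iso.refl (s : Span M M') : Iso s s := ⟨LinearEquiv.refl R _, fun _ => rfl, fun _ => rfl⟩

theorem Iso.symm {s t : Span M M'} (h : Iso s t) : Iso t s := by
  obtain ⟨e, h1, h2⟩ := h
  exact ⟨e.symm, fun x => by rw [← h1, e.apply_symm_apply], fun x => by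
    rw [← h2, e.apply_symm_apply]⟩

theorem Iso.trans {s t r : Span M M'} (h : Iso s t) (h' : Iso t r) : Iso s r := by
  obtain ⟨e, h1, h2⟩ := h
  obtain ⟨e', h1', h2'⟩ := h'
  exact ⟨e.trans e', fun x => by rw [LinearEquiv.trans_apply, h1', h1], fun x => by
    rw [LinearEquiv.trans_apply, h2', h2]⟩

instance setoid (M M' : FGP.{u, v} R) : Setoid (Span M M') where
  r := Iso
  iseqv := ⟨Iso.refl, Iso.symm, Iso.trans⟩

/-- the normal form of a diagram -/
noncomputable def toQHom (s : Span M M') : QHom R M M' where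
  dom := LinearMap.range s.i
  proj := s.coker
  fn := s.p ∘ₗ (LinearEquiv.ofInjective s.i s.inj).symm.toLinearMap
  surj := s.surj.comp (LinearEquiv.surjective _)

theorem toQHom_fn (s : Span M M') (x : s.N) (h : s.i x ∈ s.toQHom.dom) :
    s.toQHom.fn ⟨s.i x, h⟩ = s.p x := by
  change s.p ((LinearEquiv.ofInjective s.i s.inj).symm ⟨s.i x, h⟩) = s.p x
  congr 1
  rw [LinearEquiv.symm_apply_eq]
  exact Subtype.ext rfl

theorem toQHom_fn' (s : Span M M') (x : s.N) (m : M') (hm : s.i x = m)
    (h : m ∈ s.toQHom.dom) : s.toQHom.fn ⟨m, h⟩ = s.p x := by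
  subst hm
  exact toQHom_fn s x h

theorem toQHom_eq_iff {s t : Span M M'} : s.toQHom = t.toQHom ↔ Iso s t := by
  constructor
  · intro h
    have h1 : LinearMap.range s.i = LinearMap.range t.i := congrArg QHom.dom h
    have h2 : ∀ x (hx : x ∈ s.toQHom.dom) (hx' : x ∈ t.toQHom.dom),
        s.toQHom.fn ⟨x, hx⟩ = t.toQHom.fn ⟨x, hx'⟩ := by
      rw [h]
      intro x hx hx'
      rfl
    let e : s.N ≃ₗ[R] t.N := (LinearEquiv.ofInjective s.i s.inj).trans
      ((LinearEquiv.ofEq _ _ h1).trans (LinearEquiv.ofInjective t.i t.inj).symm)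
    have he : ∀ x, t.i (e x) = s.i x := by
      intro x
      have h3 := (LinearEquiv.ofInjective t.i t.inj).apply_symm_apply
        (LinearEquiv.ofEq _ _ h1 (LinearEquiv.ofInjective s.i s.inj x))
      exact congrArg Subtype.val h3
    refine ⟨e, fun x => ?_, he⟩
    have h4 := h2 (s.i x) ⟨x, rfl⟩ ⟨e x, he x⟩
    exact (toQHom_fn' t (e x) (s.i x) (he x) _).symm.trans (h4.symm.trans (toQHom_fn s x _))
  · rintro ⟨e, h1, h2⟩
    refine QHom.ext' (fun x => ⟨?_, ?_⟩) ?_
    · rintro ⟨y, rfl⟩
      exact ⟨e y, h2 y⟩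
    · rintro ⟨y, rfl⟩
      exact ⟨e.symm y, by rw [← h2, e.apply_symm_apply]⟩
    · rintro _ ⟨y, rfl⟩ hx'
      exact (toQHom_fn s y _).trans ((h1 y).symm.trans (toQHom_fn' t (e y) _ (h2 y) _).symm)

/-- a submodule with projective quotient, as a finitely generated projective module -/
theorem finite_of_quot (M : FGP.{u, v} R) (N : Submodule R M)
    (h : Module.Projective R (M ⧸ N)) : Module.Finite R N ∧ Module.Projective R N := by
  obtain ⟨σ, r, -, -, hr⟩ := exists_split N h
  exact ⟨Module.Finite.of_surjective r fun x => ⟨x, hr x⟩,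
    Module.Projective.of_split N.subtype r (LinearMap.ext fun x => hr x)⟩

/-- the diagram of a normal form -/
def ofQHom (φ : QHom R M M') : Span M M' :=
  have h := finite_of_quot M' φ.dom φ.proj
  { N := @FGP.mk R _ φ.dom _ _ h.1 h.2
    p := φ.fn
    i := φ.dom.subtype
    surj := φ.surj
    inj := Subtype.val_injective
    coker := by
      rw [Submodule.range_subtype]
      exact φ.proj }

theorem toQHom_ofQHom (φ : QHom R M M') : (ofQHom φ).toQHom = φ := by
  refine QHom.ext' (fun x => ?_) fun x hx hx' => ?_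
  · change x ∈ LinearMap.range φ.dom.subtype ↔ _
    rw [Submodule.range_subtype]
  · exact toQHom_fn (ofQHom φ) ⟨x, hx'⟩ hx

/-- the identity diagram -/
def id (M : FGP.{u, v} R) : Span M M where
  N := M
  p := LinearMap.id
  i := LinearMap.id
  surj := Function.surjective_id
  inj := Function.injective_id
  coker := by
    rw [LinearMap.range_id]
    infer_instance

theorem toQHom_id (M : FGP.{u, v} R) : (id M).toQHom = QHom.id R M :=
  QHom.ext' (fun x => ⟨fun _ => trivial, fun _ => ⟨x, rfl⟩⟩) fun x hx _ =>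
    toQHom_fn (id M) x hx

/-- the pullback `N' ×_{M'} N` -/
def pb (s : Span M M') (t : Span M' M'') : Submodule R (t.N × s.N) :=
  LinearMap.ker (t.p.coprod (-s.i))

theorem mem_pb (s : Span M M') (t : Span M' M'') (x : t.N × s.N) :
    x ∈ pb s t ↔ t.p x.1 = s.i x.2 := by
  rw [pb, LinearMap.mem_ker, LinearMap.coprod_apply, LinearMap.neg_apply, ← sub_eq_add_neg,
    sub_eq_zero]

/-- the embedding of the pullback in `M''` -/
def pbi (s : Span M M') (t : Span M' M'') : pb s t →ₗ[R] M'' :=
  t.i ∘ₗ LinearMap.fst R t.N s.N ∘ₗ (pb s t).subtype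

theorem pbi_inj (s : Span M M') (t : Span M' M'') : Function.Injective (pbi s t) := by
  rintro ⟨⟨a, b⟩, h⟩ ⟨⟨a', b'⟩, h'⟩ e
  have e1 : a = a' := t.inj e
  subst e1
  have e2 : b = b' := s.inj (((mem_pb s t _).1 h).symm.trans ((mem_pb s t _).1 h'))
  subst e2
  rfl

theorem range_pbi (s : Span M M') (t : Span M' M'') :
    LinearMap.range (pbi s t) = (QHom.comp s.toQHom t.toQHom).dom := by
  ext x
  constructor
  · rintro ⟨⟨⟨a, b⟩, h⟩, rfl⟩
    refine ⟨⟨a, rfl⟩, ?_⟩
    exact ⟨b, ((toQHom_fn t a _).trans ((mem_pb s t _).1 h)).symm⟩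
  · rintro ⟨⟨a, rfl⟩, h⟩
    obtain ⟨b, hb⟩ := h
    exact ⟨⟨(a, b), (mem_pb s t _).2 (hb.trans (toQHom_fn t a _)).symm⟩, rfl⟩

theorem pb_coker (s : Span M M') (t : Span M' M'') :
    Module.Projective R (M'' ⧸ LinearMap.range (pbi s t)) := by
  rw [range_pbi]
  exact (QHom.comp s.toQHom t.toQHom).proj

/-- the composition of diagrams, by pullback -/
def comp (s : Span M M') (t : Span M' M'') : Span M M'' :=
  have h := finite_of_quot M'' (LinearMap.range (pbi s t)) (pb_coker s t)
  have _ := h.1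
  have _ := h.2
  { N := @FGP.mk R _ (pb s t) _ _
      (Module.Finite.equiv (LinearEquiv.ofInjective (pbi s t) (pbi_inj s t)).symm)
      (Module.Projective.of_equiv (LinearEquiv.ofInjective (pbi s t) (pbi_inj s t)).symm)
    p := s.p ∘ₗ LinearMap.snd R t.N s.N ∘ₗ (pb s t).subtype
    i := pbi s t
    surj := fun m => by
      obtain ⟨b, rfl⟩ := s.surj m
      obtain ⟨a, ha⟩ := t.surj (s.i b)
      exact ⟨⟨(a, b), (mem_pb s t _).2 ha⟩, rfl⟩
    inj := pbi_inj s t
    coker := pb_coker s t }

theorem toQHom_comp (s : Span M M') (t : Span M' M'') :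
    (comp s t).toQHom = QHom.comp s.toQHom t.toQHom := by
  refine QHom.ext' (fun x => ?_) ?_
  · exact (range_pbi s t).le.antisymm (range_pbi s t).ge ▸ Iff.rfl
  · rintro _ ⟨⟨⟨a, b⟩, h⟩, rfl⟩ hx'
    refine (toQHom_fn (comp s t) ⟨(a, b), h⟩ ⟨_, rfl⟩).trans ?_
    refine Eq.trans ?_ (QHom.comp_fn s.toQHom t.toQHom (t.i a) hx').symm
    have h1 : t.toQHom.fn ⟨t.i a, hx'.1⟩ = s.i b :=
      (toQHom_fn t a _).trans ((mem_pb s t _).1 h)
    exact (toQHom_fn' s b _ h1.symm hx'.2).symm

end Span

/-- the isomorphism classes of diagrams -/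
def Cls (M M' : FGP.{u, v} R) : Type (max u (v + 1)) := Quotient (Span.setoid M M')

/-- the normal form of a class -/
noncomputable def Cls.toQHom {M M' : FGP.{u, v} R} : Cls M M' → QHom R M M' :=
  Quotient.lift Span.toQHom fun _ _ h => Span.toQHom_eq_iff.2 h

theorem Cls.toQHom_injective {M M' : FGP.{u, v} R} :
    Function.Injective (Cls.toQHom : Cls M M' → QHom R M M') := by
  rintro ⟨s⟩ ⟨t⟩ h
  exact Quotient.sound (Span.toQHom_eq_iff.1 h)

theorem Cls.toQHom_surjective {M M' : FGP.{u, v} R} :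
    Function.Surjective (Cls.toQHom : Cls M M' → QHom R M M') :=
  fun φ => ⟨Quotient.mk _ (Span.ofQHom φ), Span.toQHom_ofQHom φ⟩

/-- the composition of classes -/
def Cls.comp {M M' M'' : FGP.{u, v} R} : Cls M M' → Cls M' M'' → Cls M M'' :=
  Quotient.map₂ Span.comp fun s s' h t t' h' => by
    refine Span.toQHom_eq_iff.1 ?_
    rw [Span.toQHom_comp, Span.toQHom_comp, Span.toQHom_eq_iff.2 h, Span.toQHom_eq_iff.2 h']

theorem Cls.toQHom_comp {M M' M'' : FGP.{u, v} R} (a : Cls M M') (b : Cls M' M'') :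
    (Cls.comp a b).toQHom = QHom.comp a.toQHom b.toQHom := by
  obtain ⟨s⟩ := a
  obtain ⟨t⟩ := b
  exact Span.toQHom_comp s t

end FGP

/-- Quillen's category `Q P(R)` for the category `P(R)` of all finitely generated projective
`R`-modules: the morphisms are the isomorphism classes of diagrams `M ↞ N ↣ M'` of finitely
generated projective modules (`N → M` surjective, `N → M'` injective with projective cokernel),
composed by pullback. -/
instance largeQ (R : Type u) [CommRing R] : Category (FGP.{u, v} R) where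
  Hom M M' := FGP.Cls M M'
  id M := Quotient.mk _ (FGP.Span.id M)
  comp a b := FGP.Cls.comp a b
  id_comp a := FGP.Cls.toQHom_injective ((FGP.Cls.toQHom_comp _ a).trans
    ((congrArg (fun z => QHom.comp z a.toQHom) (FGP.Span.toQHom_id _)).trans
      (QHom.id_comp _)))
  comp_id a := FGP.Cls.toQHom_injective ((FGP.Cls.toQHom_comp a _).trans
    ((congrArg (fun z => QHom.comp a.toQHom z) (FGP.Span.toQHom_id _)).trans
      (QHom.comp_id _)))
  assoc a b c := FGP.Cls.toQHom_injective (by
    rw [FGP.Cls.toQHom_comp, FGP.Cls.toQHom_comp, FGP.Cls.toQHom_comp, FGP.Cls.toQHom_comp]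
    exact QHom.assoc _ _ _)

variable {R : Type u} [CommRing R]

/-- the module of an object of the small category -/
def toFGP (P : QP R) : FGP.{u, u} R := ⟨P.M⟩

/-- the inclusion of the small category in the category of all finitely generated projective
modules -/
noncomputable def incl (R : Type u) [CommRing R] : QP R ⥤ FGP.{u, u} R where
  obj := toFGP
  map {P P'} φ := Quotient.mk _ (FGP.Span.ofQHom (M := toFGP P) (M' := toFGP P') φ)
  map_id P := FGP.Cls.toQHom_injective (by
    exact (FGP.Span.toQHom_ofQHom (M := toFGP P) (M' := toFGP P) _).trans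
      (FGP.Span.toQHom_id (toFGP P)).symm)
  map_comp {P P' P''} φ ψ := FGP.Cls.toQHom_injective (by
    refine (FGP.Span.toQHom_ofQHom (M := toFGP P) (M' := toFGP P'') _).trans ?_
    refine Eq.trans ?_ (FGP.Cls.toQHom_comp _ _).symm
    exact (congrArg₂ QHom.comp (FGP.Span.toQHom_ofQHom (M := toFGP P) (M' := toFGP P') φ)
      (FGP.Span.toQHom_ofQHom (M := toFGP P') (M' := toFGP P'') ψ)).symm)

/-- the class of a normal form -/
def ofQ {M M' : FGP.{u, v} R} (φ : QHom R M M') : M ⟶ M' :=
  (Quotient.mk _ (FGP.Span.ofQHom φ) : FGP.Cls M M')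

/-- the normal form of a morphism -/
noncomputable def toQ {M M' : FGP.{u, v} R} (a : M ⟶ M') : QHom R M M' := FGP.Cls.toQHom a

theorem toQ_ofQ {M M' : FGP.{u, v} R} (φ : QHom R M M') : toQ (ofQ φ) = φ :=
  FGP.Span.toQHom_ofQHom φ

theorem toQ_injective {M M' : FGP.{u, v} R} :
    Function.Injective (toQ : (M ⟶ M') → QHom R M M') := FGP.Cls.toQHom_injective

theorem ofQ_toQ {M M' : FGP.{u, v} R} (a : M ⟶ M') : ofQ (toQ a) = a :=
  toQ_injective (toQ_ofQ _)

theorem toQ_id (M : FGP.{u, v} R) : toQ (𝟙 M) = QHom.id R M := FGP.Span.toQHom_id M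

theorem toQ_comp {M M' M'' : FGP.{u, v} R} (a : M ⟶ M') (b : M' ⟶ M'') :
    toQ (a ≫ b) = QHom.comp (toQ a) (toQ b) := FGP.Cls.toQHom_comp a b

theorem ofQ_comp {M M' M'' : FGP.{u, v} R} (φ : QHom R M M') (ψ : QHom R M' M'') :
    ofQ (QHom.comp φ ψ) = ofQ φ ≫ ofQ ψ :=
  toQ_injective (by rw [toQ_comp, toQ_ofQ, toQ_ofQ, toQ_ofQ])

theorem ofQ_id (M : FGP.{u, v} R) : ofQ (QHom.id R M) = 𝟙 M :=
  toQ_injective (by rw [toQ_ofQ, toQ_id])

/-- a linear isomorphism as an isomorphism of `Q P(R)` -/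
def isoOf {M M' : FGP.{u, v} R} (e : M ≃ₗ[R] M') : M ≅ M' where
  hom := ofQ (QHom.ofIso e.symm)
  inv := ofQ (QHom.ofIso e)
  hom_inv_id := by
    rw [← ofQ_comp, QHom.ofIso_comp, LinearEquiv.self_trans_symm, QHom.ofIso_refl, ofQ_id]
  inv_hom_id := by
    rw [← ofQ_comp, QHom.ofIso_comp, LinearEquiv.symm_trans_self, QHom.ofIso_refl, ofQ_id]

instance : (incl R).Faithful where
  map_injective {P P'} φ ψ h := by
    have h1 := congrArg toQ h
    exact (toQ_ofQ (M := toFGP P) (M' := toFGP P') φ).symm.trans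
      (h1.trans (toQ_ofQ (M := toFGP P) (M' := toFGP P') ψ))

instance : (incl R).Full where
  map_surjective a := ⟨toQ a, ofQ_toQ a⟩

instance : (incl R).EssSurj where
  mem_essImage M := by
    obtain ⟨P, ⟨e⟩⟩ := QP.exists_equiv (R := R) M
    exact ⟨P, ⟨isoOf (M := toFGP P) (M' := M) e⟩⟩

/-- The small category `QP R` is equivalent to Quillen's category of all finitely generated
projective modules. -/
instance isEquivalence_incl : (incl R).IsEquivalence where

end Vale.Agent.P178.H301
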