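import Vale.Agent.P178.H301.QEquiv
import Vale.Agent.P178.H847.QBase

/-! # P178 (helper301): `QP.baseChange f` is the functor `M ↦ S ⊗ M` -/

open CategoryTheory TensorProduct

namespace Vale.Agent.P178.H301

open Vale.Agent.P178.H847

universe u

section

variable {R : Type u} (S : Type u) [CommRing R] [CommRing S] [Algebra R S]

/-- `S ⊗ M` -/
def FGP.tensor (M : FGP.{u, u} R) : FGP.{u, u} S :=
  ⟨S ⊗[R] M⟩

variable {S}

theorem FGP.Span.exists_retr {M M' : FGP.{u, u} R} (s : FGP.Span M M') :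
    ∃ ρ : M' →ₗ[R] s.N, ρ ∘ₗ s.i = LinearMap.id := by
  obtain ⟨σ, r, -, -, hr⟩ := exists_split (LinearMap.range s.i) s.coker
  refine ⟨(LinearEquiv.ofInjective s.i s.inj).symm.toLinearMap ∘ₗ r, LinearMap.ext fun x => ?_⟩
  change (LinearEquiv.ofInjective s.i s.inj).symm (r (s.i x)) = x
  rw [LinearEquiv.symm_apply_eq]
  exact hr ⟨s.i x, ⟨x, rfl⟩⟩

variable (S) in
/-- base change of a diagram -/
noncomputable def FGP.Span.tensor {M M' : FGP.{u, u} R} (s : FGP.Span M M') :
    FGP.Span (M.tensor S) (M'.tensor S) where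
  N := s.N.tensor S
  p := s.p.baseChange S
  i := s.i.baseChange S
  surj := by
    obtain ⟨g, hg⟩ := LinearMap.exists_rightInverse_of_surjective s.p
      (LinearMap.range_eq_top.2 s.surj)
    intro z
    refine ⟨g.baseChange S z, ?_⟩
    have h : s.p.baseChange S ∘ₗ g.baseChange S = LinearMap.id := by
      rw [← LinearMap.baseChange_comp, hg, LinearMap.baseChange_id]
    exact congrArg (fun l => l z) h
  inj := by
    obtain ⟨ρ, hρ⟩ := s.exists_retr
    have h : ρ.baseChange S ∘ₗ s.i.baseChange S = LinearMap.id := by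
      rw [← LinearMap.baseChange_comp, hρ, LinearMap.baseChange_id]
    exact Function.LeftInverse.injective (g := ρ.baseChange S) fun z => congrArg (fun l => l z) h
  coker := by
    obtain ⟨ρ, hρ⟩ := s.exists_retr
    have h : ρ.baseChange S ∘ₗ s.i.baseChange S = LinearMap.id := by
      rw [← LinearMap.baseChange_comp, hρ, LinearMap.baseChange_id]
    refine projective_quot_of_retraction (L := M'.tensor S) _
      (s.i.baseChange S ∘ₗ ρ.baseChange S) (fun x => ⟨_, rfl⟩) ?_
    rintro _ ⟨z, rfl⟩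
    exact congrArg (fun l => s.i.baseChange S (l z)) h

variable (S) in
/-- base change of a class of diagrams -/
noncomputable def FGP.Cls.tensor {M M' : FGP.{u, u} R} :
    FGP.Cls M M' → FGP.Cls (M.tensor S) (M'.tensor S) :=
  Quotient.map (FGP.Span.tensor S) fun s t h => by
    obtain ⟨e, h1, h2⟩ := h
    refine ⟨e.baseChange R S s.N t.N, fun x => ?_, fun x => ?_⟩
    · have h3 : t.p ∘ₗ e.toLinearMap = s.p := LinearMap.ext h1
      have h4 : t.p.baseChange S ∘ₗ e.toLinearMap.baseChange S = s.p.baseChange S := by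
        rw [← LinearMap.baseChange_comp, h3]
      exact congrArg (fun l => l x) h4
    · have h3 : t.i ∘ₗ e.toLinearMap = s.i := LinearMap.ext h2
      have h4 : t.i.baseChange S ∘ₗ e.toLinearMap.baseChange S = s.i.baseChange S := by
        rw [← LinearMap.baseChange_comp, h3]
      exact congrArg (fun l => l x) h4

theorem FGP.Span.tensor_id (M : FGP.{u, u} R) :
    FGP.Span.Iso ((FGP.Span.id M).tensor S) (FGP.Span.id (M.tensor S)) := by
  refine ⟨LinearEquiv.refl S _, fun x => ?_, fun x => ?_⟩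
  · exact (congrArg (fun l => l x) (LinearMap.baseChange_id (R := R) (A := S) (M := M))).symm
  · exact (congrArg (fun l => l x) (LinearMap.baseChange_id (R := R) (A := S) (M := M))).symm

theorem FGP.Span.tensor_comp {M M' M'' : FGP.{u, u} R} (s : FGP.Span M M')
    (t : FGP.Span M' M'') :
    FGP.Span.Iso ((FGP.Span.comp s t).tensor S) (FGP.Span.comp (s.tensor S) (t.tensor S)) := by
  obtain ⟨σ, hσ⟩ := LinearMap.exists_rightInverse_of_surjective t.p
    (LinearMap.range_eq_top.2 t.surj)
  have hσ' : ∀ x, t.p (σ x) = x := fun x => congrArg (fun l => l x) hσ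
  let π₁ : FGP.Span.pb s t →ₗ[R] t.N := LinearMap.fst R t.N s.N ∘ₗ (FGP.Span.pb s t).subtype
  let π₂ : FGP.Span.pb s t →ₗ[R] s.N := LinearMap.snd R t.N s.N ∘ₗ (FGP.Span.pb s t).subtype
  have hπ : t.p ∘ₗ π₁ = s.i ∘ₗ π₂ := LinearMap.ext fun x => (FGP.Span.mem_pb s t _).1 x.2
  have hπ' : ∀ z, t.p.baseChange S (π₁.baseChange S z) = s.i.baseChange S (π₂.baseChange S z) := by
    intro z
    have h : t.p.baseChange S ∘ₗ π₁.baseChange S = s.i.baseChange S ∘ₗ π₂.baseChange S := by
      rw [← LinearMap.baseChange_comp, hπ, LinearMap.baseChange_comp]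
    exact congrArg (fun l => l z) h
  have key : ∀ z : S ⊗[R] FGP.Span.pb s t,
      (π₁.baseChange S z, π₂.baseChange S z) ∈ FGP.Span.pb (s.tensor S) (t.tensor S) :=
    fun z => (FGP.Span.mem_pb (s.tensor S) (t.tensor S) _).2 (hπ' z)
  have hi : ∀ z : S ⊗[R] FGP.Span.pb s t, (FGP.Span.pbi s t).baseChange S z =
      t.i.baseChange S (π₁.baseChange S z) := by
    intro z
    have h : (FGP.Span.pbi s t).baseChange S = t.i.baseChange S ∘ₗ π₁.baseChange S := by
      rw [← LinearMap.baseChange_comp]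
      rfl
    exact congrArg (fun l => l z) h
  have hp : ∀ z : S ⊗[R] FGP.Span.pb s t, (FGP.Span.comp s t).p.baseChange S z =
      s.p.baseChange S (π₂.baseChange S z) := by
    intro z
    have h : (FGP.Span.comp s t).p.baseChange S = s.p.baseChange S ∘ₗ π₂.baseChange S := by
      rw [← LinearMap.baseChange_comp]
      rfl
    exact congrArg (fun l => l z) h
  refine FGP.Span.toQHom_eq_iff.1 (QHom.ext' (fun x => ⟨?_, ?_⟩) ?_)
  · rintro ⟨z, rfl⟩
    exact ⟨⟨_, key z⟩, (hi z).symm⟩
  · rintro ⟨⟨⟨(a : S ⊗[R] t.N), (b : S ⊗[R] s.N)⟩, h⟩, rfl⟩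
    have hab : t.p.baseChange S a = s.i.baseChange S b :=
      (FGP.Span.mem_pb (s.tensor S) (t.tensor S) _).1 h
    let θ₁ : t.N →ₗ[R] FGP.Span.pb s t := LinearMap.codRestrict _
      (LinearMap.prod (LinearMap.id - σ ∘ₗ t.p) 0) fun x => by
        rw [FGP.Span.mem_pb]
        change t.p (x - σ (t.p x)) = s.i 0
        rw [map_sub, hσ', sub_self, map_zero]
    let θ₂ : s.N →ₗ[R] FGP.Span.pb s t := LinearMap.codRestrict _
      (LinearMap.prod (σ ∘ₗ s.i) LinearMap.id) fun x => by
        rw [FGP.Span.mem_pb]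
        exact hσ' _
    refine ⟨θ₁.baseChange S a + θ₂.baseChange S b, ?_⟩
    refine (hi _).trans ?_
    have h1 : π₁ ∘ₗ θ₁ = LinearMap.id - σ ∘ₗ t.p := rfl
    have h2 : π₁ ∘ₗ θ₂ = σ ∘ₗ s.i := rfl
    have h3 : π₁.baseChange S (θ₁.baseChange S a) =
        (a : S ⊗[R] t.N) - σ.baseChange S (t.p.baseChange S a) := by
      have h : π₁.baseChange S ∘ₗ θ₁.baseChange S =
          LinearMap.id - σ.baseChange S ∘ₗ t.p.baseChange S := by
        rw [← LinearMap.baseChange_comp, h1, LinearMap.baseChange_sub, LinearMap.baseChange_id,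
          LinearMap.baseChange_comp]
      exact congrArg (fun l => l a) h
    have h4 : π₁.baseChange S (θ₂.baseChange S b) = σ.baseChange S (s.i.baseChange S b) := by
      have h : π₁.baseChange S ∘ₗ θ₂.baseChange S = σ.baseChange S ∘ₗ s.i.baseChange S := by
        rw [← LinearMap.baseChange_comp, h2, LinearMap.baseChange_comp]
      exact congrArg (fun l => l b) h
    rw [map_add, h3, h4, hab, sub_add_cancel]
    rfl
  · rintro _ ⟨z, rfl⟩ hx'
    refine (FGP.Span.toQHom_fn ((FGP.Span.comp s t).tensor S) z _).trans ?_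
    refine (hp z).trans ?_
    exact (FGP.Span.toQHom_fn' (FGP.Span.comp (s.tensor S) (t.tensor S))
      ⟨_, key z⟩ _ (hi z).symm hx').symm

variable (R S) in
/-- the functor `M ↦ S ⊗ M` between Quillen's categories -/
noncomputable def tensorQ : FGP.{u, u} R ⥤ FGP.{u, u} S where
  obj M := M.tensor S
  map a := FGP.Cls.tensor S a
  map_id M := Quotient.sound (FGP.Span.tensor_id M)
  map_comp a b := by
    obtain ⟨s⟩ := a
    obtain ⟨t⟩ := b
    exact Quotient.sound (FGP.Span.tensor_comp s t)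

end

/-! ## Comparison with the base change of the small model -/

section Compare

variable (R S : Type u) [CommRing R] [CommRing S] [Algebra R S]

/-- the map `S ⊗ N → S ^ n` of a submodule `N ⊆ R ^ n` -/
noncomputable def jj {n : ℕ} (N : Submodule R (Fin n → R)) : S ⊗[R] N →ₗ[S] (Fin n → S) :=
  (TensorProduct.piScalarRight R S S (Fin n)).toLinearMap ∘ₗ N.subtype.baseChange S

theorem jj_tmul {n : ℕ} (N : Submodule R (Fin n → R)) (a : S) (x : N) :
    jj R S N (a ⊗ₜ x) = a • fv (algebraMap R S) x.1 := by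
  funext i
  change (TensorProduct.piScalarRight R S S (Fin n) (a ⊗ₜ (x : Fin n → R))) i = _
  rw [TensorProduct.piScalarRight_apply, TensorProduct.piScalarRightHom_tmul]
  change x.1 i • a = a * algebraMap R S (x.1 i)
  rw [Algebra.smul_def, mul_comm]

theorem jj_injective {n : ℕ} (N : Submodule R (Fin n → R))
    (h : Module.Projective R ((Fin n → R) ⧸ N)) : Function.Injective (jj R S N) := by
  obtain ⟨σ, r, -, -, hr⟩ := exists_split N h
  refine (TensorProduct.piScalarRight R S S (Fin n)).injective.comp ?_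
  have h1 : r.baseChange S ∘ₗ N.subtype.baseChange S = LinearMap.id := by
    rw [← LinearMap.baseChange_comp, show r ∘ₗ N.subtype = LinearMap.id from LinearMap.ext hr,
      LinearMap.baseChange_id]
  exact Function.LeftInverse.injective (g := r.baseChange S) fun z => congrArg (fun l => l z) h1

/-- the image of `S ⊗ D` in `S ^ n`, for a submodule `D` of a submodule `N` -/
theorem range_jj {n : ℕ} (N : Submodule R (Fin n → R)) (D : Submodule R N) :
    LinearMap.range (jj R S N ∘ₗ D.subtype.baseChange S) =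
      bc (algebraMap R S) (D.map N.subtype) := by
  apply le_antisymm
  · rintro _ ⟨z, rfl⟩
    rw [LinearMap.comp_apply]
    induction z using TensorProduct.induction_on with
    | zero => rw [map_zero, map_zero]; exact zero_mem _
    | tmul a d =>
      rw [LinearMap.baseChange_tmul, jj_tmul]
      exact Submodule.smul_mem _ _ (fv_mem_bc _ ⟨d.1, d.2, rfl⟩)
    | add a b ha hb => rw [map_add, map_add]; exact add_mem ha hb
  · rw [bc, Submodule.span_le]
    rintro _ ⟨_, ⟨d, hd, rfl⟩, rfl⟩
    refine ⟨1 ⊗ₜ ⟨d, hd⟩, ?_⟩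
    rw [LinearMap.comp_apply, LinearMap.baseChange_tmul, jj_tmul, one_smul]
    rfl

theorem range_jj' {n : ℕ} (N : Submodule R (Fin n → R)) :
    LinearMap.range (jj R S N) = bc (algebraMap R S) N := by
  have h := range_jj R S N ⊤
  have h1 : Function.Surjective ((⊤ : Submodule R N).subtype.baseChange S) := by
    intro z
    have h2 : (⊤ : Submodule R N).subtype.baseChange S ∘ₗ
        (Submodule.topEquiv (R := R) (M := N)).symm.toLinearMap.baseChange S = LinearMap.id := by
      rw [← LinearMap.baseChange_comp]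
      exact LinearMap.baseChange_id
    exact ⟨_, congrArg (fun l => l z) h2⟩
  rw [LinearMap.range_comp, LinearMap.range_eq_top.2 h1, Submodule.map_top] at h
  rw [h, Submodule.map_top, Submodule.range_subtype]

/-- `S ⊗ P ≃ S · f(P)` -/
noncomputable def thE (P : QP R) :
    ((toFGP P).tensor S : FGP.{u, u} S) ≃ₗ[S] toFGP (QP.bcObj (algebraMap R S) P) :=
  (LinearEquiv.ofInjective (jj R S P.M) (jj_injective R S P.M P.proj)).trans
    (LinearEquiv.ofEq _ _ (range_jj' R S P.M))

theorem thE_val (P : QP R) (z : S ⊗[R] P.M) : (thE R S P z).1 = jj R S P.M z := rfl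

theorem thE_fn {P P' : QP R} (φ : QHom R P.M P'.M) (z : S ⊗[R] φ.dom) :
    jj R S P.M (φ.fn.baseChange S z) =
      bcMap (algebraMap R S) (amb φ) (jj R S P'.M (φ.dom.subtype.baseChange S z)) := by
  induction z using TensorProduct.induction_on with
  | zero => simp only [map_zero]
  | tmul a d =>
    rw [LinearMap.baseChange_tmul, jj_tmul, LinearMap.baseChange_tmul, jj_tmul, map_smul,
      bcMap_fv]
    congr 2
    exact (amb_apply φ d.1.2 d.2).symm
  | add a b ha hb => simp only [map_add, ha, hb]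

theorem thE_natural {P P' : QP R} (φ : P ⟶ P') :
    (tensorQ R S).map ((incl R).map φ) ≫ (isoOf (thE R S P')).hom =
      (isoOf (thE R S P)).hom ≫ (incl S).map ((QP.baseChange (algebraMap R S)).map φ) := by
  apply toQ_injective
  refine (toQ_comp _ _).trans (Eq.trans ?_ (toQ_comp _ _).symm)
  have e1 : toQ ((tensorQ R S).map ((incl R).map φ)) =
      ((FGP.Span.ofQHom (M := toFGP P) (M' := toFGP P') φ).tensor S).toQHom := rfl
  have e2 : toQ (isoOf (thE R S P')).hom = QHom.ofIso (thE R S P').symm := toQ_ofQ _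
  have e3 : toQ (isoOf (thE R S P)).hom = QHom.ofIso (thE R S P).symm := toQ_ofQ _
  have e4 : toQ ((incl S).map ((QP.baseChange (algebraMap R S)).map φ)) =
      QP.bcHom (algebraMap R S) φ := toQ_ofQ (M := toFGP _) (M' := toFGP _) _
  refine (congrArg₂ QHom.comp e1 e2).trans (Eq.trans ?_ (congrArg₂ QHom.comp e3 e4).symm)
  have hz : ∀ (z : S ⊗[R] φ.dom), (thE R S P' (φ.dom.subtype.baseChange S z)).1 ∈
      bc (algebraMap R S) (domAmb φ) := by
    intro z
    rw [thE_val]
    exact (range_jj R S P'.M φ.dom).le ⟨z, rfl⟩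
  refine QHom.ext' (fun x => ⟨?_, ?_⟩) ?_
  · rintro ⟨_, ⟨z, hzx⟩⟩
    have h1 : x = thE R S P' (φ.dom.subtype.baseChange S z) :=
      (LinearEquiv.symm_apply_eq (thE R S P')).1 (Eq.symm hzx)
    exact ⟨by rw [h1]; exact hz z, trivial⟩
  · rintro ⟨h, -⟩
    obtain ⟨z, hz⟩ := (range_jj R S P'.M φ.dom).ge h
    exact ⟨trivial, ⟨z, ((LinearEquiv.symm_apply_eq (thE R S P')).2 (Subtype.ext hz.symm)).symm⟩⟩
  · rintro x ⟨_, ⟨z, hzx⟩⟩ ⟨h, _⟩
    have h1 : x = thE R S P' (φ.dom.subtype.baseChange S z) :=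
      (LinearEquiv.symm_apply_eq (thE R S P')).1 (Eq.symm hzx)
    refine (FGP.Span.toQHom_fn'
      ((FGP.Span.ofQHom (M := toFGP P) (M' := toFGP P') φ).tensor S) z _ hzx _).trans ?_
    refine ((LinearEquiv.symm_apply_eq (thE R S P)).2 (Subtype.ext ?_)).symm
    refine (QP.bcHom_fn (algebraMap R S) φ x h).trans ?_
    rw [h1]
    exact (thE_fn R S φ z).symm

/-- The functor `QP.baseChange (algebraMap R S)` of the small categories is the functor
`M ↦ S ⊗ M`. -/
noncomputable def baseChangeIso : incl R ⋙ tensorQ R S ≅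
    QP.baseChange (algebraMap R S) ⋙ incl S :=
  NatIso.ofComponents (fun P => isoOf (thE R S P)) fun φ => thE_natural R S φ

end Compare

end Vale.Agent.P178.H301
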