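import Mathlib

/-! # P178 (helper301): the geometric realization of a simplicial set, via characteristic maps -/

namespace Vale.Agent.P178.H301

open CategoryTheory Simplicial Opposite Topology

universe u v

section

variable {X : SSet.{u}}

/-- the characteristic map of a simplex -/
noncomputable def chi {n : ℕ} (σ : X _⦋n⦌) : C(stdSimplex ℝ (Fin (n + 1)), SSet.toTop.obj X) :=
  TopCat.toSSetObjEquiv _ _ ((sSetTopAdj.unit.app X).app _ σ)

/-- the map of standard simplices induced by an operator -/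
noncomputable def om {m n : ℕ} (θ : ⦋m⦌ ⟶ ⦋n⦌) :
    C(stdSimplex ℝ (Fin (m + 1)), stdSimplex ℝ (Fin (n + 1))) :=
  ⟨stdSimplex.map θ, by continuity⟩

theorem om_apply {m n : ℕ} (θ : ⦋m⦌ ⟶ ⦋n⦌) (t : stdSimplex ℝ (Fin (m + 1))) (j : Fin (n + 1)) :
    om θ t j = ∑ i with θ i = j, t i := by
  simp [om, stdSimplex.map_coe, FunOnFinite.linearMap_apply_apply]

theorem chi_map {m n : ℕ} (θ : ⦋m⦌ ⟶ ⦋n⦌) (σ : X _⦋n⦌) (t : stdSimplex ℝ (Fin (m + 1))) :
    chi (X.map θ.op σ) t = chi σ (om θ t) := by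
  have h := NatTrans.naturality_apply (sSetTopAdj.unit.app X) θ.op σ
  unfold chi
  have h2 : (sSetTopAdj.unit.app X).app (op ⦋m⦌) (X.map θ.op σ) =
      (TopCat.toSSet.obj (SSet.toTop.obj X)).map θ.op ((sSetTopAdj.unit.app X).app _ σ) := h
  rw [h2]
  rfl

/-- a compatible family of maps -/
structure Fam (X : SSet.{u}) (Y : Type u) [TopologicalSpace Y] where
  f : ∀ n, X _⦋n⦌ → C(stdSimplex ℝ (Fin (n + 1)), Y)
  nat : ∀ {m n : ℕ} (θ : ⦋m⦌ ⟶ ⦋n⦌) (σ : X _⦋n⦌) (t : stdSimplex ℝ (Fin (m + 1))),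
    f m (X.map θ.op σ) t = f n σ (om θ t)

variable {Y : Type u} [TopologicalSpace Y]

/-- the simplicial map to the singular simplicial set -/
noncomputable def Fam.toHom (F : Fam X Y) : X ⟶ TopCat.toSSet.obj (TopCat.of Y) where
  app k := ↾fun σ => (TopCat.toSSetObjEquiv (TopCat.of Y) k).symm (F.f k.unop.len σ)
  naturality k l θ := by
    ext σ
    apply (TopCat.toSSetObjEquiv (TopCat.of Y) l).injective
    ext t
    exact F.nat θ.unop σ t

/-- the map on the realization -/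
noncomputable def Fam.desc (F : Fam X Y) : C(SSet.toTop.obj X, Y) :=
  ((sSetTopAdj.homEquiv X (TopCat.of Y)).symm F.toHom).hom

theorem homEquiv_chi {Z : TopCat.{u}} (g : SSet.toTop.obj X ⟶ Z) {n : ℕ} (σ : X _⦋n⦌)
    (t : stdSimplex ℝ (Fin (n + 1))) :
    TopCat.toSSetObjEquiv Z (op ⦋n⦌) ((sSetTopAdj.homEquiv X Z g).app (op ⦋n⦌) σ) t =
      g.hom (chi σ t) := by
  rw [Adjunction.homEquiv_unit]
  rfl

theorem Fam.desc_chi (F : Fam X Y) {n : ℕ} (σ : X _⦋n⦌) (t : stdSimplex ℝ (Fin (n + 1))) :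
    F.desc (chi σ t) = F.f n σ t := by
  have h := homEquiv_chi ((sSetTopAdj.homEquiv X (TopCat.of Y)).symm F.toHom) σ t
  rw [Equiv.apply_symm_apply] at h
  exact h.symm

theorem hom_ext {f g : C(SSet.toTop.obj X, Y)}
    (h : ∀ (n : ℕ) (σ : X _⦋n⦌) (t : stdSimplex ℝ (Fin (n + 1))), f (chi σ t) = g (chi σ t)) :
    f = g := by
  have h1 : (TopCat.ofHom f : SSet.toTop.obj X ⟶ TopCat.of Y) = TopCat.ofHom g := by
    apply (sSetTopAdj.homEquiv X (TopCat.of Y)).injective
    ext k σ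
    apply (TopCat.toSSetObjEquiv (TopCat.of Y) k).injective
    ext t
    have h1 := homEquiv_chi (TopCat.ofHom f : SSet.toTop.obj X ⟶ TopCat.of Y) (n := k.unop.len) σ t
    have h2 := homEquiv_chi (TopCat.ofHom g : SSet.toTop.obj X ⟶ TopCat.of Y) (n := k.unop.len) σ t
    exact h1.trans ((h _ σ t).trans h2.symm)
  exact congrArg TopCat.Hom.hom h1

/-- every point of the realization lies in a simplex -/
theorem exists_chi (z : SSet.toTop.obj X) :
    ∃ (n : ℕ) (σ : X _⦋n⦌) (t : stdSimplex ℝ (Fin (n + 1))), chi σ t = z := by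
  by_contra hz
  let _ : TopologicalSpace (ULift.{u} Prop) := ⊤
  let f : C(SSet.toTop.obj X, ULift.{u} Prop) := ⟨fun _ => ⟨True⟩, continuous_top⟩
  let g : C(SSet.toTop.obj X, ULift.{u} Prop) :=
    ⟨fun z => ⟨∃ (n : ℕ) (σ : X _⦋n⦌) (t : stdSimplex ℝ (Fin (n + 1))), chi σ t = z⟩, continuous_top⟩
  have hfg : f = g := hom_ext fun n σ t => by
    apply ULift.down_injective
    exact (eq_true ⟨n, σ, t, rfl⟩).symm
  have h2 : (f z).down = (g z).down := by rw [hfg]
  exact hz (cast h2 trivial)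

/-- the topology of the realization is coherent with the simplices -/
theorem isOpen_iff {U : Set (SSet.toTop.obj X)} :
    IsOpen U ↔ ∀ (n : ℕ) (σ : X _⦋n⦌), IsOpen (chi σ ⁻¹' U) := by
  refine ⟨fun h n σ => h.preimage (chi σ).continuous, fun h => ?_⟩
  let F : Fam X (ULift.{u} Prop) :=
    { f := fun n σ => ⟨fun t => ⟨chi σ t ∈ U⟩,
        continuous_uliftUp.comp (isOpen_iff_continuous_mem.1 (h n σ))⟩
      nat := fun θ σ t => by
        apply ULift.down_injective
        change (_ ∈ U) = (_ ∈ U)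
        rw [chi_map] }
  have h1 : ∀ z, (F.desc z).down = (z ∈ U) := by
    intro z
    obtain ⟨n, σ, t, rfl⟩ := exists_chi z
    rw [F.desc_chi]
    rfl
  have h2 : Continuous fun z => (F.desc z).down := continuous_uliftDown.comp F.desc.continuous
  rw [isOpen_iff_continuous_mem]
  have h3 : (fun z => z ∈ U) = fun z => (F.desc z).down := funext fun z => (h1 z).symm
  change Continuous fun z => z ∈ U
  rw [h3]
  exact h2

theorem isClosed_iff {U : Set (SSet.toTop.obj X)} :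
    IsClosed U ↔ ∀ (n : ℕ) (σ : X _⦋n⦌), IsClosed (chi σ ⁻¹' U) := by
  simp only [← isOpen_compl_iff, isOpen_iff, Set.preimage_compl]

theorem continuous_iff {Z : Type v} [TopologicalSpace Z] {g : SSet.toTop.obj X → Z} :
    Continuous g ↔ ∀ (n : ℕ) (σ : X _⦋n⦌), Continuous fun t => g (chi σ t) := by
  refine ⟨fun h n σ => h.comp (chi σ).continuous, fun h => ⟨fun U hU => ?_⟩⟩
  rw [isOpen_iff]
  exact fun n σ => hU.preimage (h n σ)

/-- the induced map -/
noncomputable def rmap {X' : SSet.{u}} (φ : X ⟶ X') : C(SSet.toTop.obj X, SSet.toTop.obj X') :=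
  (SSet.toTop.map φ).hom

theorem rmap_chi {X' : SSet.{u}} (φ : X ⟶ X') {n : ℕ} (σ : X _⦋n⦌)
    (t : stdSimplex ℝ (Fin (n + 1))) : rmap φ (chi σ t) = chi (φ.app _ σ) t := by
  have h := homEquiv_chi (SSet.toTop.map φ) σ t
  have h2 : sSetTopAdj.homEquiv X (SSet.toTop.obj X') (SSet.toTop.map φ) =
      φ ≫ sSetTopAdj.unit.app X' := by
    rw [Adjunction.homEquiv_unit]
    exact (sSetTopAdj.unit.naturality φ).symm
  rw [h2] at h
  exact h.symm

theorem rmap_id_apply (z : SSet.toTop.obj X) : rmap (𝟙 X) z = z := by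
  unfold rmap; rw [SSet.toTop.map_id]; rfl

theorem rmap_comp_apply {X' X'' : SSet.{u}} (φ : X ⟶ X') (ψ : X' ⟶ X'') (z : SSet.toTop.obj X) :
    rmap (φ ≫ ψ) z = rmap ψ (rmap φ z) := by
  unfold rmap; rw [SSet.toTop.map_comp]; rfl

/-- a compatible family of homotopies -/
structure HFam (X : SSet.{u}) (Y : Type u) [TopologicalSpace Y] where
  f : ∀ n, X _⦋n⦌ → C(stdSimplex ℝ (Fin (n + 1)) × unitInterval, Y)
  nat : ∀ {m n : ℕ} (θ : ⦋m⦌ ⟶ ⦋n⦌) (σ : X _⦋n⦌) (t : stdSimplex ℝ (Fin (m + 1)))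
    (s : unitInterval), f m (X.map θ.op σ) (t, s) = f n σ (om θ t, s)

/-- the family of maps to the path space -/
noncomputable def HFam.fam (F : HFam X Y) : Fam X C(unitInterval, Y) where
  f n σ := (F.f n σ).curry
  nat θ σ t := by
    ext s
    exact F.nat θ σ t s

/-- the homotopy on the realization -/
noncomputable def HFam.desc (F : HFam X Y) : C(SSet.toTop.obj X × unitInterval, Y) :=
  F.fam.desc.uncurry

theorem HFam.desc_chi (F : HFam X Y) {n : ℕ} (σ : X _⦋n⦌) (t : stdSimplex ℝ (Fin (n + 1)))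
    (s : unitInterval) : F.desc (chi σ t, s) = F.f n σ (t, s) := by
  change F.fam.desc (chi σ t) s = _
  rw [F.fam.desc_chi]
  rfl

/-- the vertices -/
noncomputable def pt (x : X _⦋0⦌) : SSet.toTop.obj X := chi x (stdSimplex.vertex 0)

theorem chi_vertex {n : ℕ} (σ : X _⦋n⦌) (i : Fin (n + 1)) :
    chi σ (stdSimplex.vertex i) = pt (X.map (SimplexCategory.const ⦋0⦌ ⦋n⦌ i).op σ) := by
  rw [pt, chi_map]
  congr 1
  exact (stdSimplex.map_vertex (S := ℝ) (SimplexCategory.const ⦋0⦌ ⦋n⦌ i) (0 : Fin 1)).symm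

end

end Vale.Agent.P178.H301
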